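import Mathlib
import Crest.Agent.Helper75.Core3
import Crest.Agent.Helper42.MeanShift

/-!
Helper75: 1-D core of S0423, part 4: assembly in S-form from the facts (2), (4), (5), and the
transfer from the F-form (distribution function) to the S-form (survival function
`S v = F (4/3 - v)`).
-/

open MeasureTheory Set Real Filter

namespace Crest.Agent.Helper75

/-- S-form core, assuming the three integral facts (2), (4), (5). -/
theorem core_S_of (S : ℝ → ℝ) (hmeas : Measurable S) (hanti : Antitone S) (h0 : ∀ v, 0 ≤ S v)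
    (h1 : ∀ v, S v ≤ 1)
    (h4 : ∀ x y h, x ≤ y → 0 ≤ h → S x * S (y + h) ≤ S (x + h) * S y)
    (hint : Integrable (fun v => S v - Set.indicator (Set.Iio 0) 1 v))
    (hmean : ∫ v, (S v - Set.indicator (Set.Iio 0) 1 v) = 4 / 3)
    (f5 : S 0 * ((∫ t in Ioi 0, S t) - ∫ t in Ioi 0, Real.exp (-t) * S t)
        ≤ (∫ t in Ioi 0, S t) * ∫ t in Ioi 0, Real.exp (-t) * S t)
    (f2 : (∫ t in Ioi 0, Real.exp (-t) * S t)
          * ((∫ t in Ioi 0, S t) - ∫ t in Ioi 0, Real.exp (-t) * S t)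
        ≤ (∫ t in Ioi 0, S t) * ∫ v in Ioi 0, v * Real.exp (-v) * S v)
    (f4 : (∫ t in Ioi 0, Real.exp (-t) * S t)
        ≤ S 0 * (1 - Real.exp (-((∫ t in Ioi 0, S t) / S 0)))) :
    4 / 9 * Real.exp (-(1 / 3)) ≤ ∫ v in Ioi 0, v * Real.exp (-v) * S v := by
  obtain ⟨hp, ha, hf1⟩ := fact1 hmeas hanti h0 h1 h4 hint hmean
  exact final_algebra (S 0) (∫ t in Ioi 0, S t) (∫ t in Ioi 0, Real.exp (-t) * S t)
    (∫ v in Ioi 0, v * Real.exp (-v) * S v) hp (h1 0) ha hf1 f2 f4 f5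

/-- Transfer from the F-form to the S-form: `S v = F (4/3 - v)`. -/
theorem transfer (F : ℝ → ℝ) (hmeas : Measurable F) (hmono : Monotone F) (h0 : ∀ x, 0 ≤ F x)
    (h1 : ∀ x, F x ≤ 1)
    (h4 : ∀ x y h : ℝ, x ≤ y → 0 ≤ h → F x * F (y + h) ≤ F (x + h) * F y)
    (hint : Integrable (fun x => F x - Set.indicator (Set.Ioi (0:ℝ)) (1 : ℝ → ℝ) x))
    (hmean : ∫ x, (F x - Set.indicator (Set.Ioi (0:ℝ)) (1 : ℝ → ℝ) x) = 0) :
    Measurable (fun v => F (4 / 3 - v)) ∧ Antitone (fun v => F (4 / 3 - v)) ∧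
    (∀ v, 0 ≤ F (4 / 3 - v)) ∧ (∀ v, F (4 / 3 - v) ≤ 1) ∧
    (∀ x y h, x ≤ y → 0 ≤ h →
      F (4 / 3 - x) * F (4 / 3 - (y + h)) ≤ F (4 / 3 - (x + h)) * F (4 / 3 - y)) ∧
    Integrable (fun v => F (4 / 3 - v) - Set.indicator (Set.Iio (0:ℝ)) (1 : ℝ → ℝ) v) ∧
    ∫ v, (F (4 / 3 - v) - Set.indicator (Set.Iio (0:ℝ)) (1 : ℝ → ℝ) v) = 4 / 3 := by
  refine ⟨?_, ?_, fun v => h0 _, fun v => h1 _, ?_, ?_, ?_⟩
  · exact hmeas.comp (measurable_const.sub measurable_id)
  · intro u v huv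
    exact hmono (by linarith)
  · intro x y h hxy hh
    have := h4 (4 / 3 - (y + h)) (4 / 3 - (x + h)) h (by linarith) hh
    have e1 : 4 / 3 - (y + h) + h = 4 / 3 - y := by ring
    have e2 : 4 / 3 - (x + h) + h = 4 / 3 - x := by ring
    rw [e1, e2] at this
    linarith
  · have hI := Crest.Agent.Helper42.integrable_shift_sub_H F hint (4 / 3)
    have hI2 := hI.comp_neg
    refine hI2.congr (Eventually.of_forall fun v => ?_)
    have e1 : -v + 4 / 3 = 4 / 3 - v := by ring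
    simp only [e1]
    congr 1
    simp only [indicator, mem_Ioi, mem_Iio, Left.neg_pos_iff, Pi.one_apply]
  · have hI := Crest.Agent.Helper42.integral_shift_sub_H F hint (4 / 3)
    rw [hmean, zero_add] at hI
    have hneg := integral_neg_eq_self
      (fun y => F (y + 4 / 3) - Set.indicator (Set.Ioi (0:ℝ)) (1 : ℝ → ℝ) y) volume
    rw [hI] at hneg
    refine Eq.trans ?_ hneg
    refine integral_congr_ae (Eventually.of_forall fun v => ?_)
    have e1 : -v + 4 / 3 = 4 / 3 - v := by ring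
    simp only [e1]
    congr 1
    simp only [indicator, mem_Ioi, mem_Iio, Left.neg_pos_iff, Pi.one_apply]

end Crest.Agent.Helper75
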